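import Vale.Agent.P297.H839.Defs

/-!
The polynomials of the triangle twins.
-/

namespace Vale.Agent.P297.R2.H834

/-- `A(s,t) = (s³ - 1) (t - ω s) (t (s² + e s + d) - ω (e s² + d s + 1))`; here `ω` is meant to be a
primitive third root of unity. -/
noncomputable def TriOne (ω d e : ℂ) {N : Type} [Field N] [Algebra ℂ N] (s t : N) : N :=
  (s ^ 3 - 1) * (t - algebraMap ℂ N ω * s) *
    (t * (s ^ 2 + algebraMap ℂ N e * s + algebraMap ℂ N d) -
      algebraMap ℂ N ω * (algebraMap ℂ N e * s ^ 2 + algebraMap ℂ N d * s + 1))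

/-- `A(s,t) = (s-1) (s-κ) (s-κ²) (t-κs) ((s-1) (s-κ²) (t-κ²) + n (s-κ³) (t-κs))`. -/
noncomputable def TriTwo (κ n : ℂ) {N : Type} [Field N] [Algebra ℂ N] (s t : N) : N :=
  (s - 1) * (s - algebraMap ℂ N κ) * (s - algebraMap ℂ N κ ^ 2) * (t - algebraMap ℂ N κ * s) *
    ((s - 1) * (s - algebraMap ℂ N κ ^ 2) * (t - algebraMap ℂ N κ ^ 2) +
      algebraMap ℂ N n * (s - algebraMap ℂ N κ ^ 3) * (t - algebraMap ℂ N κ * s))

/-- `A(s,t) = s (s-1) (t-κs) (t (g s + κ) + s ((g+κ+1) s - ((κ+1) g + κ² + κ + 1)))`. -/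
noncomputable def TriThree (κ g : ℂ) {N : Type} [Field N] [Algebra ℂ N] (s t : N) : N :=
  s * (s - 1) * (t - algebraMap ℂ N κ * s) *
    (t * (algebraMap ℂ N g * s + algebraMap ℂ N κ) +
      s * ((algebraMap ℂ N g + algebraMap ℂ N κ + 1) * s -
        ((algebraMap ℂ N κ + 1) * algebraMap ℂ N g + algebraMap ℂ N κ ^ 2 + algebraMap ℂ N κ + 1)))

end Vale.Agent.P297.R2.H834
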