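import Vale.Agent.P297.R2.H834.Tools
import Vale.Agent.P297.R2.H834.TriDefs

/-!
The first type of triangle twins.
-/

set_option linter.unusedSectionVars false
set_option linter.style.haveILetI false

open CategoryTheory AlgebraicGeometry IntermediateField Polynomial

namespace Vale.Agent.P297.R2.H834

open Vale.Agent.P297 Vale.Agent.P297.H839 Vale.Agent.P297.H109

section

variable {N : Type} [Field N] [Algebra ℂ N]

theorem one_z {ω d e : ℂ} (hω : ω ^ 2 + ω + 1 = 0) {s t z : N}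
    (hst : AlgebraicIndependent ℂ ![s, t]) (hz : z ^ 2 = TriOne ω d e s t) :
    IsConicType (IntermediateField.adjoin ℂ {s, t}) z := by
  obtain ⟨W, hW⟩ : ∃ W, W = algebraMap ℂ N ω := ⟨_, rfl⟩
  obtain ⟨D, hD⟩ : ∃ D, D = algebraMap ℂ N d := ⟨_, rfl⟩
  obtain ⟨E, hE⟩ : ∃ E, E = algebraMap ℂ N e := ⟨_, rfl⟩
  unfold TriOne at hz
  rw [← hW, ← hD, ← hE] at hz
  have hW2 : W ^ 2 + W + 1 = 0 := by
    rw [hW, ← map_pow, ← map_add, ← map_one (algebraMap ℂ N), ← map_add, hω, map_zero]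
  have hW0 : W ≠ 0 := by
    rintro rfl
    norm_num at hW2
  have hs1 : s ^ 3 - 1 ≠ 0 := by
    have h := poly_ne_zero hst (X ^ 3 - 1 : ℂ[X]) (X_pow_sub_C_ne_zero (by norm_num) 1)
    simpa using h
  have hWm : W ∈ ℂ⟮s⟯ := by rw [hW]; exact IntermediateField.algebraMap_mem _ _
  have hDm : D ∈ ℂ⟮s⟯ := by rw [hD]; exact IntermediateField.algebraMap_mem _ _
  have hEm : E ∈ ℂ⟮s⟯ := by rw [hE]; exact IntermediateField.algebraMap_mem _ _
  have hsm : s ∈ ℂ⟮s⟯ := IntermediateField.mem_adjoin_simple_self ℂ s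
  have h1 : (1 : N) ∈ ℂ⟮s⟯ := one_mem _
  refine ⟨s, t, (s ^ 3 - 1) * (s ^ 2 + E * s + D),
    -((s ^ 3 - 1) * W * ((E * s ^ 2 + D * s + 1) + s * (s ^ 2 + E * s + D))),
    (s ^ 3 - 1) * W ^ 2 * s * (E * s ^ 2 + D * s + 1), 1, hst, rfl, ?_, ?_, ?_, ?_, one_mem _,
    one_ne_zero, ?_⟩
  · exact mul_mem (sub_mem (pow_mem hsm 3) h1)
      (add_mem (add_mem (pow_mem hsm 2) (mul_mem hEm hsm)) hDm)
  · refine neg_mem (mul_mem (mul_mem (sub_mem (pow_mem hsm 3) h1) hWm) ?_)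
    exact add_mem (add_mem (add_mem (mul_mem hEm (pow_mem hsm 2)) (mul_mem hDm hsm)) h1)
      (mul_mem hsm (add_mem (add_mem (pow_mem hsm 2) (mul_mem hEm hsm)) hDm))
  · exact mul_mem (mul_mem (mul_mem (sub_mem (pow_mem hsm 3) h1) (pow_mem hWm 2)) hsm)
      (add_mem (add_mem (mul_mem hEm (pow_mem hsm 2)) (mul_mem hDm hsm)) h1)
  · have h2 : (-((s ^ 3 - 1) * W * ((E * s ^ 2 + D * s + 1) + s * (s ^ 2 + E * s + D)))) ^ 2 -
        4 * ((s ^ 3 - 1) * (s ^ 2 + E * s + D)) *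
          ((s ^ 3 - 1) * W ^ 2 * s * (E * s ^ 2 + D * s + 1)) = (W * (s ^ 3 - 1) ^ 2) ^ 2 := by
      ring
    rw [h2]
    exact pow_ne_zero 2 (mul_ne_zero hW0 (pow_ne_zero 2 hs1))
  · rw [one_mul, hz]
    ring

theorem one_zw {ω d e : ℂ} (hω : ω ^ 2 + ω + 1 = 0) {s t z w : N}
    (hst : AlgebraicIndependent ℂ ![s, t]) (hz : z ^ 2 = TriOne ω d e s t)
    (hw : w ^ 2 = TriOne ω d e t s) :
    IsConicType (IntermediateField.adjoin ℂ {s + t, s * t}) (z * w) := by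
  have hXZ : (s + t) * (s * t) + 1 + algebraMap ℂ N ω * algebraMap ℂ N e *
      (s * t - (s + t) ^ 2) ≠ 0 := by
    have h := aeval_ne_zero hst ((MvPolynomial.X 0 + MvPolynomial.X 1) *
      (MvPolynomial.X 0 * MvPolynomial.X 1) + 1 + MvPolynomial.C ω * MvPolynomial.C e *
      (MvPolynomial.X 0 * MvPolynomial.X 1 - (MvPolynomial.X 0 + MvPolynomial.X 1) ^ 2))
      ![0, 0] (by simp)
    simpa using h
  have hZ0 : s * t - (s + t) ^ 2 ≠ 0 := by
    have h := aeval_ne_zero hst (MvPolynomial.X 0 * MvPolynomial.X 1 -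
      (MvPolynomial.X 0 + MvPolynomial.X 1) ^ 2) ![1, 0] (by simp)
    simpa using h
  have hT0 : (s ^ 3 - 1) * (t ^ 3 - 1) ≠ 0 := by
    have h := aeval_ne_zero hst ((MvPolynomial.X 0 ^ 3 - 1) * (MvPolynomial.X 1 ^ 3 - 1))
      ![0, 0] (by simp)
    simpa using h
  obtain ⟨W, hW⟩ : ∃ W, W = algebraMap ℂ N ω := ⟨_, rfl⟩
  obtain ⟨D, hD⟩ : ∃ D, D = algebraMap ℂ N d := ⟨_, rfl⟩
  obtain ⟨E, hE⟩ : ∃ E, E = algebraMap ℂ N e := ⟨_, rfl⟩
  unfold TriOne at hz hw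
  rw [← hW, ← hD, ← hE] at hz hw
  rw [← hW, ← hE] at hXZ
  have hW2 : W ^ 2 + W + 1 = 0 := by
    rw [hW, ← map_pow, ← map_add, ← map_one (algebraMap ℂ N), ← map_add, hω, map_zero]
  have hW0 : W ≠ 0 := by
    rintro rfl
    norm_num at hW2
  obtain ⟨Z, hZ⟩ : ∃ Z : N, Z = s * t - (s + t) ^ 2 := ⟨_, rfl⟩
  obtain ⟨P, hP⟩ : ∃ P : N, P = ((s + t) * (s * t) + 1 + W * E * Z) / Z := ⟨_, rfl⟩
  obtain ⟨l, hl⟩ : ∃ l : N, l = ((s * t) ^ 2 + (s + t) + W ^ 2 * D * Z) /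
      ((s + t) * (s * t) + 1 + W * E * Z) := ⟨_, rfl⟩
  rw [← hZ] at hZ0 hXZ
  have hX : (s + t) * (s * t) + 1 = Z * (P - W * E) := by
    have h : P * Z = (s + t) * (s * t) + 1 + W * E * Z := by rw [hP, div_mul_cancel₀ _ hZ0]
    linear_combination -h
  have hY : (s * t) ^ 2 + (s + t) = Z * (l * P - W ^ 2 * D) := by
    have h : P * Z = (s + t) * (s * t) + 1 + W * E * Z := by rw [hP, div_mul_cancel₀ _ hZ0]
    have h' : l * (P * Z) = (s * t) ^ 2 + (s + t) + W ^ 2 * D * Z := by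
      rw [h, hl, div_mul_cancel₀ _ hXZ]
    linear_combination -h'
  have hP0 : P ≠ 0 := by
    rw [hP]
    exact div_ne_zero hXZ hZ0
  obtain ⟨p, hp⟩ : ∃ p : N, p = P - W * E := ⟨_, rfl⟩
  obtain ⟨q, hq⟩ : ∃ q : N, q = l * P - W ^ 2 * D := ⟨_, rfl⟩
  rw [← hp] at hX
  rw [← hq] at hY
  have e1 : Z ^ 2 * (p ^ 2 + q) = (s ^ 3 - 1) * (t ^ 3 - 1) := by
    have h : Z ^ 2 * (p ^ 2 + q) = (Z * p) ^ 2 + (Z * q) * Z := by ring
    rw [h, ← hX, ← hY, hZ]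
    ring
  have e2 : Z ^ 2 * (p * q - 1) = (s + t) * ((s ^ 3 - 1) * (t ^ 3 - 1)) := by
    have h : Z ^ 2 * (p * q - 1) = (Z * p) * (Z * q) - Z ^ 2 := by ring
    rw [h, ← hX, ← hY, hZ]
    ring
  have e3 : Z ^ 2 * (q ^ 2 + p) = (s * t) * ((s ^ 3 - 1) * (t ^ 3 - 1)) := by
    have h : Z ^ 2 * (q ^ 2 + p) = (Z * q) ^ 2 + (Z * p) * Z := by ring
    rw [h, ← hX, ← hY, hZ]
    ring
  have hpq0 : p ^ 2 + q ≠ 0 := by
    intro h
    rw [h, mul_zero] at e1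
    exact hT0 e1.symm
  have hu : s + t = (p * q - 1) / (p ^ 2 + q) := by
    rw [eq_div_iff hpq0]
    apply mul_left_cancel₀ (pow_ne_zero 2 hZ0)
    rw [e2, ← e1]
    ring
  have hv : s * t = (q ^ 2 + p) / (p ^ 2 + q) := by
    rw [eq_div_iff hpq0]
    apply mul_left_cancel₀ (pow_ne_zero 2 hZ0)
    rw [e3, ← e1]
    ring
  -- membership
  have hWm : ∀ G : IntermediateField ℂ N, W ∈ G ∧ D ∈ G ∧ E ∈ G := fun G =>
    ⟨by rw [hW]; exact G.algebraMap_mem _, by rw [hD]; exact G.algebraMap_mem _,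
      by rw [hE]; exact G.algebraMap_mem _⟩
  have hgen : ∀ G : IntermediateField ℂ N, l ∈ G → P ∈ G → s + t ∈ G ∧ s * t ∈ G := by
    intro G hlG hPG
    obtain ⟨hWG, hDG, hEG⟩ := hWm G
    have hpG : p ∈ G := by rw [hp]; exact sub_mem hPG (mul_mem hWG hEG)
    have hqG : q ∈ G := by
      rw [hq]
      exact sub_mem (mul_mem hlG hPG) (mul_mem (pow_mem hWG 2) hDG)
    constructor
    · rw [hu]
      exact div_mem (sub_mem (mul_mem hpG hqG) (one_mem _)) (add_mem (pow_mem hpG 2) hqG)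
    · rw [hv]
      exact div_mem (add_mem (pow_mem hqG 2) hpG) (add_mem (pow_mem hpG 2) hqG)
  have hgen' : ∀ G : IntermediateField ℂ N, s + t ∈ G → s * t ∈ G → Z ∈ G ∧ P ∈ G ∧ l ∈ G := by
    intro G hqG hpG
    obtain ⟨hWG, hDG, hEG⟩ := hWm G
    have hZG : Z ∈ G := by rw [hZ]; exact sub_mem hpG (pow_mem hqG 2)
    have hXG : (s + t) * (s * t) + 1 + W * E * Z ∈ G :=
      add_mem (add_mem (mul_mem hqG hpG) (one_mem _)) (mul_mem (mul_mem hWG hEG) hZG)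
    refine ⟨hZG, ?_, ?_⟩
    · rw [hP]; exact div_mem hXG hZG
    · rw [hl]
      exact div_mem (add_mem (add_mem (pow_mem hpG 2) hqG)
        (mul_mem (mul_mem (pow_mem hWG 2) hDG) hZG)) hXG
  have hlF : l ∈ IntermediateField.adjoin ℂ {l, P} := IntermediateField.subset_adjoin _ _ (by simp)
  have hPF : P ∈ IntermediateField.adjoin ℂ {l, P} := IntermediateField.subset_adjoin _ _ (by simp)
  have hqL : s + t ∈ IntermediateField.adjoin ℂ {s + t, s * t} :=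
    IntermediateField.subset_adjoin _ _ (by simp)
  have hpL : s * t ∈ IntermediateField.adjoin ℂ {s + t, s * t} :=
    IntermediateField.subset_adjoin _ _ (by simp)
  obtain ⟨hqF, hpF⟩ := hgen _ hlF hPF
  obtain ⟨hZL, hPL, hlL⟩ := hgen' _ hqL hpL
  have hind := indep_sym hst hqF hpF
  have hEq : IntermediateField.adjoin ℂ {s + t, s * t} = IntermediateField.adjoin ℂ {l, P} := by
    apply le_antisymm
    · rw [IntermediateField.adjoin_le_iff]
      rintro a (ha | ha)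
      · rw [ha]; exact hqF
      · rw [Set.mem_singleton_iff.1 ha]; exact hpF
    · rw [IntermediateField.adjoin_le_iff]
      rintro a (ha | ha)
      · rw [ha]; exact hlL
      · rw [Set.mem_singleton_iff.1 ha]; exact hPL
  -- the equation
  have key : (s ^ 3 - 1) * (t ^ 3 - 1) *
      ((t * (s ^ 2 + E * s + D) - W * (E * s ^ 2 + D * s + 1)) *
        (s * (t ^ 2 + E * t + D) - W * (E * t ^ 2 + D * t + 1))) =
      Z ^ 3 * ((-1 - W) * p ^ 3 + (-1 - 2 * W) * D * p ^ 2 * q + (W * D ^ 2 + 2 * E) * p ^ 2 +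
        (1 - W) * E * p * q ^ 2 + (W * D * E - W) * p * q + (W * E ^ 2 - D) * p + q ^ 3 +
        (W * E ^ 2 - (2 + 2 * W) * D) * q ^ 2 + (W * D ^ 2 + (1 + W) * E) * q - W * D * E) := by
    have h : Z ^ 3 * ((-1 - W) * p ^ 3 + (-1 - 2 * W) * D * p ^ 2 * q +
        (W * D ^ 2 + 2 * E) * p ^ 2 +
        (1 - W) * E * p * q ^ 2 + (W * D * E - W) * p * q + (W * E ^ 2 - D) * p + q ^ 3 +
        (W * E ^ 2 - (2 + 2 * W) * D) * q ^ 2 + (W * D ^ 2 + (1 + W) * E) * q - W * D * E) =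
        (-1 - W) * (Z * p) ^ 3 + (-1 - 2 * W) * D * (Z * p) ^ 2 * (Z * q) +
        (W * D ^ 2 + 2 * E) * (Z * p) ^ 2 * Z +
        (1 - W) * E * (Z * p) * (Z * q) ^ 2 + (W * D * E - W) * (Z * p) * (Z * q) * Z +
        (W * E ^ 2 - D) * (Z * p) * Z ^ 2 + (Z * q) ^ 3 +
        (W * E ^ 2 - (2 + 2 * W) * D) * (Z * q) ^ 2 * Z +
        (W * D ^ 2 + (1 + W) * E) * (Z * q) * Z ^ 2 - W * D * E * Z ^ 3 := by
      ring
    rw [h, ← hX, ← hY, hZ]
    linear_combination ((E * s ^ 2 + D * s + 1) * (E * t ^ 2 + D * t + 1) * ((s ^ 3 - 1) *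
      (t ^ 3 - 1))) * hW2
  have key2 : (-1 - W) * p ^ 3 + (-1 - 2 * W) * D * p ^ 2 * q + (W * D ^ 2 + 2 * E) * p ^ 2 +
        (1 - W) * E * p * q ^ 2 + (W * D * E - W) * p * q + (W * E ^ 2 - D) * p + q ^ 3 +
        (W * E ^ 2 - (2 + 2 * W) * D) * q ^ 2 + (W * D ^ 2 + (1 + W) * E) * q - W * D * E =
      P ^ 2 * (((D ^ 2 - E) + W * (D * E - 1) * l + (1 + W) * (D - E ^ 2) * l ^ 2) +
        P * (l ^ 3 + (1 - W) * E * l ^ 2 + (-(1 + 2 * W) * D) * l + (-1 - W))) := by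
    have h : q = l * P + (1 + W) * D := by
      rw [hq]
      linear_combination (-D) * hW2
    rw [h, hp]
    linear_combination (P^2 * E^2 * l^2 - D^2 * E^2 * W^2 + 3 * P * D^2 * E * W +
      2 * P^2 * D * E * l + E^3 * W^2 + P * D^2 * E - P * D^2 * l - 3 * P * E^2 * W -
      2 * P^2 * D^2 - D^3 * W + P * E * l + 3 * P^2 * E + D * E * W - D^3 - P * D + D * E) * hW2
  have hzw : (z * w) ^ 2 = (Z ^ 2 * P) ^ 2 *
      (0 * P ^ 2 + W * (l ^ 3 + (1 - W) * E * l ^ 2 + (-(1 + 2 * W) * D) * l + (-1 - W)) * P +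
        W * ((D ^ 2 - E) + W * (D * E - 1) * l + (1 + W) * (D - E ^ 2) * l ^ 2)) := by
    have h1 : (t - W * s) * (s - W * t) = W * Z := by
      rw [hZ]
      linear_combination (s * t) * hW2
    have h2 : (z * w) ^ 2 = ((t - W * s) * (s - W * t)) * ((s ^ 3 - 1) * (t ^ 3 - 1) *
      ((t * (s ^ 2 + E * s + D) - W * (E * s ^ 2 + D * s + 1)) *
        (s * (t ^ 2 + E * t + D) - W * (E * t ^ 2 + D * t + 1)))) := by
      rw [mul_pow, hz, hw]
      ring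
    rw [h2, h1, key, key2]
    ring
  have hB0 : l ^ 3 + (1 - W) * E * l ^ 2 + (-(1 + 2 * W) * D) * l + (-1 - W) ≠ 0 := by
    have h := poly_ne_zero hind (X ^ 3 + Polynomial.C ((1 - ω) * e) * X ^ 2 +
      Polynomial.C (-(1 + 2 * ω) * d) * X + Polynomial.C (-1 - ω)) (by
        apply Monic.ne_zero
        monicity!)
    simp only [map_add, map_pow, map_mul, aeval_X, aeval_C, map_sub, map_one, map_neg,
      map_ofNat] at h
    rw [← hW, ← hD, ← hE] at h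
    exact h
  obtain ⟨hWl, hDl, hEl⟩ := hWm ℂ⟮l⟯
  have hll : l ∈ ℂ⟮l⟯ := IntermediateField.mem_adjoin_simple_self ℂ l
  have h1l : (1 : N) ∈ ℂ⟮l⟯ := one_mem _
  have h2l : (2 : N) ∈ ℂ⟮l⟯ := ofNat_mem _ 2
  have hZP : Z ^ 2 * P ≠ 0 := mul_ne_zero (pow_ne_zero 2 hZ0) hP0
  refine ⟨l, P, 0, W * (l ^ 3 + (1 - W) * E * l ^ 2 + (-(1 + 2 * W) * D) * l + (-1 - W)),
    W * ((D ^ 2 - E) + W * (D * E - 1) * l + (1 + W) * (D - E ^ 2) * l ^ 2), (Z ^ 2 * P)⁻¹, hind,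
    hEq, zero_mem _, ?_, ?_, ?_, ?_, inv_ne_zero hZP, ?_⟩
  · exact mul_mem hWl (add_mem (add_mem (add_mem (pow_mem hll 3) (mul_mem (mul_mem
      (sub_mem h1l hWl) hEl) (pow_mem hll 2))) (mul_mem (mul_mem (neg_mem (add_mem h1l
      (mul_mem h2l hWl))) hDl) hll)) (sub_mem (neg_mem h1l) hWl))
  · exact mul_mem hWl (add_mem (add_mem (sub_mem (pow_mem hDl 2) hEl) (mul_mem (mul_mem hWl
      (sub_mem (mul_mem hDl hEl) h1l)) hll)) (mul_mem (mul_mem (add_mem h1l hWl)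
      (sub_mem hDl (pow_mem hEl 2))) (pow_mem hll 2)))
  · rw [mul_zero, zero_mul, sub_zero]
    exact pow_ne_zero 2 (mul_ne_zero hW0 hB0)
  · exact inv_mem (mul_mem (pow_mem hZL 2) hPL)
  · rw [mul_pow, hzw, ← mul_assoc, inv_pow, inv_mul_cancel₀ (pow_ne_zero 2 hZP), one_mul]

end

/-- **The first type of triangle twins.** -/
theorem tri_one {ω : ℂ} (hω : ω ^ 2 + ω + 1 = 0) (d e : ℂ) :
    TwinFamily (fun _ _ _ s t => TriOne ω d e s t) := by
  intro N _ _ s t z w hst hz hw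
  have hp : ∀ a b : N, MvPolynomial.aeval ![a, b] ((MvPolynomial.X 0 ^ 3 - 1) *
      (MvPolynomial.X 1 - MvPolynomial.C ω * MvPolynomial.X 0) *
      (MvPolynomial.X 1 * (MvPolynomial.X 0 ^ 2 + MvPolynomial.C e * MvPolynomial.X 0 +
        MvPolynomial.C d) - MvPolynomial.C ω * (MvPolynomial.C e * MvPolynomial.X 0 ^ 2 +
        MvPolynomial.C d * MvPolynomial.X 0 + 1)) : MvPolynomial (Fin 2) ℂ) =
      TriOne ω d e a b := by
    intro a b
    unfold TriOne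
    simp only [map_sub, map_mul, map_add, map_pow, map_one, MvPolynomial.aeval_C,
      MvPolynomial.aeval_X, Matrix.cons_val_zero, Matrix.cons_val_one]
  exact twin_poly _ hst (hz.trans (hp s t).symm) (hw.trans (hp t s).symm) (one_z hω hst hz)
    (one_zw hω hst hz hw)

end Vale.Agent.P297.R2.H834
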