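import Vale.Agent.P297.R2.H834.Tools
import Vale.Agent.P297.R2.H834.TriDefs

/-!
The third type of triangle twins.
-/

set_option linter.unusedSectionVars false
set_option linter.style.haveILetI false

open CategoryTheory AlgebraicGeometry IntermediateField Polynomial

namespace Vale.Agent.P297.R2.H834

open Vale.Agent.P297 Vale.Agent.P297.H839 Vale.Agent.P297.H109

section

variable {N : Type} [Field N] [Algebra ℂ N]

theorem three_z {κ g : ℂ} (hκ : κ + 1 ≠ 0) (hg : g + 1 ≠ 0) {s t z : N}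
    (hst : AlgebraicIndependent ℂ ![s, t]) (hz : z ^ 2 = TriThree κ g s t) :
    IsConicType (IntermediateField.adjoin ℂ {s, t}) z := by
  have hs1 : s - 1 ≠ 0 := sub_ne_zero.2 (by simpa using ne_const hst 1)
  have hs0 : s ≠ 0 := by simpa using ne_const hst 0
  have hc0 : (algebraMap ℂ N κ + 1) * (algebraMap ℂ N g + 1) ≠ 0 := by
    have h : algebraMap ℂ N ((κ + 1) * (g + 1)) ≠ 0 :=
      (_root_.map_ne_zero _).2 (mul_ne_zero hκ hg)
    simpa using h
  have hKm : algebraMap ℂ N κ ∈ ℂ⟮s⟯ := IntermediateField.algebraMap_mem _ _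
  have hGm : algebraMap ℂ N g ∈ ℂ⟮s⟯ := IntermediateField.algebraMap_mem _ _
  have hsm : s ∈ ℂ⟮s⟯ := IntermediateField.mem_adjoin_simple_self ℂ s
  have h1 : (1 : N) ∈ ℂ⟮s⟯ := one_mem _
  refine conic_z (g := s * (s - 1)) (γ := algebraMap ℂ N g * s + algebraMap ℂ N κ)
    (k := algebraMap ℂ N κ) (c := (algebraMap ℂ N κ + 1) * (algebraMap ℂ N g + 1)) hst
    (mul_mem hsm (sub_mem hsm h1)) (add_mem (mul_mem hGm hsm) hKm) hKm
    (mul_mem (add_mem hKm h1) (add_mem hGm h1)) (mul_ne_zero hs0 hs1) hc0 ?_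
  rw [hz]
  unfold TriThree
  ring

theorem three_zw {κ g : ℂ} (hn : g + κ + 1 ≠ 0) {s t z w : N}
    (hst : AlgebraicIndependent ℂ ![s, t]) (hz : z ^ 2 = TriThree κ g s t)
    (hw : w ^ 2 = TriThree κ g t s) :
    IsConicType (IntermediateField.adjoin ℂ {s + t, s * t}) (z * w) := by
  obtain ⟨hB0, hA0, hT1, hT2⟩ := factors_ne_zero κ hst
  have hts := indep_swap hst
  have hs0 : s ≠ 0 := by simpa using ne_const hst 0
  have ht0 : t ≠ 0 := by simpa using ne_const hts 0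
  have hs1 : s - 1 ≠ 0 := sub_ne_zero.2 (by simpa using ne_const hst 1)
  have ht1 : t - 1 ≠ 0 := sub_ne_zero.2 (by simpa using ne_const hts 1)
  have hvk : s * t - algebraMap ℂ N κ ≠ 0 := by
    have h := aeval_ne_zero hst (MvPolynomial.X 0 * MvPolynomial.X 1 - MvPolynomial.C κ)
      ![1, κ + 1] (by simp)
    simpa using h
  obtain ⟨K, hK⟩ : ∃ K, K = algebraMap ℂ N κ := ⟨_, rfl⟩
  obtain ⟨G, hG⟩ : ∃ G, G = algebraMap ℂ N g := ⟨_, rfl⟩
  unfold TriThree at hz hw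
  rw [← hK, ← hG] at hz hw
  rw [← hK] at hB0 hA0 hT1 hT2 hvk
  obtain ⟨v, hv⟩ : ∃ v : N, v = s * t := ⟨_, rfl⟩
  obtain ⟨u, hu⟩ : ∃ u : N, u = s + t := ⟨_, rfl⟩
  obtain ⟨L, hL⟩ : ∃ L : N, L = v - u + 1 := ⟨_, rfl⟩
  obtain ⟨A, hA⟩ : ∃ A : N, A = u - 1 - K := ⟨_, rfl⟩
  obtain ⟨B, hB⟩ : ∃ B : N, B = (1 + K) * v - K * u := ⟨_, rfl⟩
  obtain ⟨C, hC⟩ : ∃ C : N, C = (1 + K) ^ 2 * v - K * u ^ 2 := ⟨_, rfl⟩
  rw [← hv] at hB0 hvk
  rw [← hu] at hB0 hA0
  rw [← hB] at hB0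
  rw [← hA] at hA0
  have hv0 : v ≠ 0 := by rw [hv]; exact mul_ne_zero hs0 ht0
  have hL0 : L ≠ 0 := by
    have h : L = (s - 1) * (t - 1) := by rw [hL, hv, hu]; ring
    rw [h]
    exact mul_ne_zero hs1 ht1
  have hC0 : C ≠ 0 := by
    have h : C = (t - K * s) * (s - K * t) := by rw [hC, hv, hu]; ring
    rw [h]
    exact mul_ne_zero hT1 hT2
  obtain ⟨l, hl⟩ : ∃ l : N, l = C * L / (v * A ^ 2) := ⟨_, rfl⟩
  obtain ⟨m, hm⟩ : ∃ m : N, m = v * A ^ 2 / B ^ 2 := ⟨_, rfl⟩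
  obtain ⟨a, ha⟩ : ∃ a : N, a = A / L := ⟨_, rfl⟩
  have hl0 : l ≠ 0 := by
    rw [hl]
    exact div_ne_zero (mul_ne_zero hC0 hL0) (mul_ne_zero hv0 (pow_ne_zero 2 hA0))
  have hm0 : m ≠ 0 := by
    rw [hm]
    exact div_ne_zero (mul_ne_zero hv0 (pow_ne_zero 2 hA0)) (pow_ne_zero 2 hB0)
  have ha0 : a ≠ 0 := by
    rw [ha]
    exact div_ne_zero hA0 hL0
  have hlA : l * (v * A ^ 2) = C * L := by
    rw [hl, div_mul_cancel₀ _ (mul_ne_zero hv0 (pow_ne_zero 2 hA0))]
  have hmB : m * B ^ 2 = v * A ^ 2 := by rw [hm, div_mul_cancel₀ _ (pow_ne_zero 2 hB0)]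
  have haL : a * L = A := by rw [ha, div_mul_cancel₀ _ hL0]
  have hLA : L + A = v - K := by rw [hL, hA]; ring
  have hBL : B = (1 + K) * L + A := by rw [hB, hL, hA]; ring
  have hrel : C * (v - K) = B ^ 2 - K * (v * A ^ 2) := by
    rw [hC, hB, hA]; ring
  have h1a : 1 + a ≠ 0 := by
    intro h
    apply hvk
    rw [← hLA, ← haL]
    linear_combination L * h
  have haeq : a = 1 / (l * m) - K / l - 1 := by
    have h1 : (1 + a) * (l * m) = 1 - K * m := by
      apply mul_right_cancel₀ (mul_ne_zero (pow_ne_zero 2 hB0) (mul_ne_zero hv0 (pow_ne_zero 2 hA0)))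
      have h2 : (1 + a) * (l * m) * (B ^ 2 * (v * A ^ 2)) =
          (1 + a) * (l * (v * A ^ 2)) * (m * B ^ 2) := by ring
      rw [h2, hlA, hmB]
      have h3 : (1 + a) * (C * L) = C * (v - K) := by
        rw [← hLA, ← haL]; ring
      rw [h3, hrel]
      linear_combination K * (v * A ^ 2) * hmB
    have h4 : 1 / (l * m) - K / l - 1 = (1 - K * m) / (l * m) - 1 := by
      field_simp
    rw [h4, ← h1, mul_div_cancel_right₀ _ (mul_ne_zero hl0 hm0)]
    ring
  have hveq : v = m * ((1 + K + a) / a) ^ 2 := by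
    have h1 : B = A * ((1 + K + a) / a) := by
      rw [hBL, ← haL]
      field_simp
    have h2 : v * A ^ 2 = m * ((1 + K + a) / a) ^ 2 * A ^ 2 := by
      rw [← hmB, h1]; ring
    exact mul_right_cancel₀ (pow_ne_zero 2 hA0) h2
  have hueq : u = (a * (v + 1) + 1 + K) / (1 + a) := by
    rw [eq_div_iff h1a]
    rw [hA, hL] at haL
    linear_combination -haL
  -- membership
  have hKm : ∀ F : IntermediateField ℂ N, K ∈ F ∧ G ∈ F := fun F =>
    ⟨by rw [hK]; exact F.algebraMap_mem _, by rw [hG]; exact F.algebraMap_mem _⟩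
  have hgen : ∀ F : IntermediateField ℂ N, l ∈ F → m ∈ F → u ∈ F ∧ v ∈ F := by
    intro F hlF hmF
    obtain ⟨hKF, -⟩ := hKm F
    have h1F : (1 : N) ∈ F := one_mem _
    have haF : a ∈ F := by
      rw [haeq]
      exact sub_mem (sub_mem (div_mem h1F (mul_mem hlF hmF)) (div_mem hKF hlF)) h1F
    have hvF : v ∈ F := by
      rw [hveq]
      exact mul_mem hmF (pow_mem (div_mem (add_mem (add_mem h1F hKF) haF) haF) 2)
    refine ⟨?_, hvF⟩
    rw [hueq]
    exact div_mem (add_mem (add_mem (mul_mem haF (add_mem hvF h1F)) h1F) hKF) (add_mem h1F haF)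
  have hgen' : ∀ F : IntermediateField ℂ N, u ∈ F → v ∈ F → l ∈ F ∧ m ∈ F ∧ A ∈ F ∧ B ∈ F := by
    intro F huF hvF
    obtain ⟨hKF, -⟩ := hKm F
    have h1F : (1 : N) ∈ F := one_mem _
    have hAF : A ∈ F := by rw [hA]; exact sub_mem (sub_mem huF h1F) hKF
    have hBF : B ∈ F := by
      rw [hB]; exact sub_mem (mul_mem (add_mem h1F hKF) hvF) (mul_mem hKF huF)
    have hLF : L ∈ F := by rw [hL]; exact add_mem (sub_mem hvF huF) h1F
    have hCF : C ∈ F := by
      rw [hC]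
      exact sub_mem (mul_mem (pow_mem (add_mem h1F hKF) 2) hvF) (mul_mem hKF (pow_mem huF 2))
    refine ⟨?_, ?_, hAF, hBF⟩
    · rw [hl]; exact div_mem (mul_mem hCF hLF) (mul_mem hvF (pow_mem hAF 2))
    · rw [hm]; exact div_mem (mul_mem hvF (pow_mem hAF 2)) (pow_mem hBF 2)
  have hlF : l ∈ IntermediateField.adjoin ℂ {l, m} := IntermediateField.subset_adjoin _ _ (by simp)
  have hmF : m ∈ IntermediateField.adjoin ℂ {l, m} := IntermediateField.subset_adjoin _ _ (by simp)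
  have huL : u ∈ IntermediateField.adjoin ℂ {s + t, s * t} := by
    rw [hu]; exact IntermediateField.subset_adjoin _ _ (by simp)
  have hvL : v ∈ IntermediateField.adjoin ℂ {s + t, s * t} := by
    rw [hv]; exact IntermediateField.subset_adjoin _ _ (by simp)
  obtain ⟨huF, hvF⟩ := hgen _ hlF hmF
  obtain ⟨hlL, hmL, hAL, hBL'⟩ := hgen' _ huL hvL
  have hind : AlgebraicIndependent ℂ ![l, m] :=
    indep_sym hst (by rw [← hu]; exact huF) (by rw [← hv]; exact hvF)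
  have hEq : IntermediateField.adjoin ℂ {s + t, s * t} = IntermediateField.adjoin ℂ {l, m} := by
    apply le_antisymm
    · rw [IntermediateField.adjoin_le_iff]
      rintro b (hb | hb)
      · rw [hb, ← hu]; exact huF
      · rw [Set.mem_singleton_iff.1 hb, ← hv]; exact hvF
    · rw [IntermediateField.adjoin_le_iff]
      rintro b (hb | hb)
      · rw [hb]; exact hlL
      · rw [Set.mem_singleton_iff.1 hb]; exact hmL
  -- the equation
  have key : (t * (G * s + K) + s * ((G + K + 1) * s - ((K + 1) * G + K ^ 2 + K + 1))) *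
      (s * (G * t + K) + t * ((G + K + 1) * t - ((K + 1) * G + K ^ 2 + K + 1))) =
      (G + K + 1) * (C * L) + (G + K + 1) * (G + K) * (v * A ^ 2) - (G + K) * B ^ 2 := by
    rw [hC, hL, hA, hB, hu, hv]
    ring
  have hzw : (z * w) ^ 2 = (B * v * A) ^ 2 *
      (0 * m ^ 2 + (l * ((G + K + 1) * (l + (G + K)))) * m + -(l * (G + K))) := by
    have h2 : (z * w) ^ 2 = v * (L * C) *
      ((t * (G * s + K) + s * ((G + K + 1) * s - ((K + 1) * G + K ^ 2 + K + 1))) *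
      (s * (G * t + K) + t * ((G + K + 1) * t - ((K + 1) * G + K ^ 2 + K + 1)))) := by
      rw [mul_pow, hz, hw, hL, hC, hu, hv]
      ring
    rw [h2, key]
    have h3 : (B * v * A) ^ 2 *
      (0 * m ^ 2 + (l * ((G + K + 1) * (l + (G + K)))) * m + -(l * (G + K))) =
      v * (l * (v * A ^ 2)) * ((G + K + 1) * (l * (m * B ^ 2)) +
        (G + K + 1) * (G + K) * (m * B ^ 2) - (G + K) * B ^ 2) := by ring
    rw [h3, hmB, hlA]
    ring
  have hG1 : G + K + 1 ≠ 0 := by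
    have h : algebraMap ℂ N (g + κ + 1) ≠ 0 := (_root_.map_ne_zero _).2 hn
    rw [map_add, map_add, map_one, ← hK, ← hG] at h
    exact h
  have hlG : l + (G + K) ≠ 0 := by
    have h := linear_ne_zero hind (e₀ := g + κ) (e₁ := 1) (Or.inr one_ne_zero)
    rw [map_one, map_add, ← hK, ← hG, one_mul] at h
    exact h
  obtain ⟨hKl, hGl⟩ := hKm ℂ⟮l⟯
  have hll : l ∈ ℂ⟮l⟯ := IntermediateField.mem_adjoin_simple_self ℂ l
  have h1l : (1 : N) ∈ ℂ⟮l⟯ := one_mem _
  have hq0 : B * v * A ≠ 0 := mul_ne_zero (mul_ne_zero hB0 hv0) hA0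
  refine ⟨l, m, 0, l * ((G + K + 1) * (l + (G + K))), -(l * (G + K)), (B * v * A)⁻¹, hind,
    hEq, zero_mem _, ?_, ?_, ?_, ?_, inv_ne_zero hq0, ?_⟩
  · exact mul_mem hll (mul_mem (add_mem (add_mem hGl hKl) h1l) (add_mem hll (add_mem hGl hKl)))
  · exact neg_mem (mul_mem hll (add_mem hGl hKl))
  · rw [mul_zero, zero_mul, sub_zero]
    exact pow_ne_zero 2 (mul_ne_zero hl0 (mul_ne_zero hG1 hlG))
  · exact inv_mem (mul_mem (mul_mem hBL' hvL) hAL)
  · rw [mul_pow, hzw, ← mul_assoc, inv_pow, inv_mul_cancel₀ (pow_ne_zero 2 hq0), one_mul]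

end

/-- **The third type of triangle twins.** -/
theorem tri_three {κ g : ℂ} (hκ : κ + 1 ≠ 0) (hg : g + 1 ≠ 0) (hn : g + κ + 1 ≠ 0) :
    TwinFamily (fun _ _ _ s t => TriThree κ g s t) := by
  intro N _ _ s t z w hst hz hw
  have hp : ∀ a b : N, MvPolynomial.aeval ![a, b] (MvPolynomial.X 0 * (MvPolynomial.X 0 - 1) *
      (MvPolynomial.X 1 - MvPolynomial.C κ * MvPolynomial.X 0) *
      (MvPolynomial.X 1 * (MvPolynomial.C g * MvPolynomial.X 0 + MvPolynomial.C κ) +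
        MvPolynomial.X 0 * ((MvPolynomial.C g + MvPolynomial.C κ + 1) * MvPolynomial.X 0 -
        ((MvPolynomial.C κ + 1) * MvPolynomial.C g + MvPolynomial.C κ ^ 2 + MvPolynomial.C κ +
          1))) : MvPolynomial (Fin 2) ℂ) = TriThree κ g a b := by
    intro a b
    unfold TriThree
    simp only [map_sub, map_mul, map_add, map_pow, map_one, MvPolynomial.aeval_C,
      MvPolynomial.aeval_X, Matrix.cons_val_zero, Matrix.cons_val_one]
  exact twin_poly _ hst (hz.trans (hp s t).symm) (hw.trans (hp t s).symm) (three_z hκ hg hst hz)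
    (three_zw hn hst hz hw)

end Vale.Agent.P297.R2.H834
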