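import Vale.Agent.P297.H109.Conic
import Vale.Agent.P297.H109.TwinDefs

/-!
Twins of conic type over the symmetric square of the line: tools.
-/

set_option linter.unusedSectionVars false
set_option linter.style.haveILetI false

open CategoryTheory AlgebraicGeometry IntermediateField Polynomial

namespace Vale.Agent.P297.R2.H834

open Vale.Agent.P297 Vale.Agent.P297.H839 Vale.Agent.P297.H109

section

variable {N : Type} [Field N] [Algebra ℂ N]

theorem map_poly {K : Type} [Field K] [Algebra ℂ K] (m : K →ₐ[ℂ] N) (p : MvPolynomial (Fin 2) ℂ)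
    (a b : K) : m (MvPolynomial.aeval ![a, b] p) = MvPolynomial.aeval ![m a, m b] p := by
  rw [← AlgHom.comp_apply, MvPolynomial.comp_aeval]
  congr 2
  ext i
  fin_cases i <;> rfl

/-- The twin theorem for a polynomial `p(s,t)`. -/
theorem twin_poly (p : MvPolynomial (Fin 2) ℂ) {s t z w : N}
    (hst : AlgebraicIndependent ℂ ![s, t]) (hz : z ^ 2 = MvPolynomial.aeval ![s, t] p)
    (hw : w ^ 2 = MvPolynomial.aeval ![t, s] p)
    (h1 : IsConicType (IntermediateField.adjoin ℂ {s, t}) z)
    (h2 : IsConicType (IntermediateField.adjoin ℂ {s + t, s * t}) (z * w)) :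
    PointsEquivalent (IntermediateField.adjoin ℂ {s + t, s * t, z + w, z * w}) := by
  obtain ⟨B, hB⟩ : ∃ B : IntermediateField ℂ N, B = IntermediateField.adjoin ℂ {s, t} := ⟨_, rfl⟩
  have hsB : s ∈ B := by rw [hB]; exact IntermediateField.subset_adjoin _ _ (by simp)
  have htB : t ∈ B := by rw [hB]; exact IntermediateField.subset_adjoin _ _ (by simp)
  obtain ⟨σ, hσ, hσs, hσt⟩ := exists_swap hst B hB ⟨s, hsB⟩ ⟨t, htB⟩ rfl rfl
  have hfix := fixed_swap B hB ⟨s, hsB⟩ ⟨t, htB⟩ rfl rfl σ hσs hσt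
  obtain ⟨b, hbdef⟩ : ∃ b : B, b = MvPolynomial.aeval ![(⟨s, hsB⟩ : B), ⟨t, htB⟩] p := ⟨_, rfl⟩
  have hb : B.val b = MvPolynomial.aeval ![s, t] p := by rw [hbdef]; exact map_poly B.val p _ _
  have hb' : B.val (σ b) = MvPolynomial.aeval ![t, s] p := by
    have h1 := map_poly (B.val.comp σ.toAlgHom) p ⟨s, hsB⟩ ⟨t, htB⟩
    have h2 : (B.val.comp σ.toAlgHom) ⟨s, hsB⟩ = t := congrArg B.val hσs
    have h3 : (B.val.comp σ.toAlgHom) ⟨t, htB⟩ = s := congrArg B.val hσt
    rw [h2, h3, ← hbdef] at h1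
    exact h1
  have hK : (IntermediateField.fixedField (Subgroup.zpowers σ)).map B.val ⊔
      IntermediateField.adjoin ℂ {z + w} =
      IntermediateField.adjoin ℂ {s + t, s * t, z + w, z * w} := by
    have hmem : z ^ 2 + w ^ 2 ∈ IntermediateField.adjoin ℂ {s + t, s * t} := by
      rw [← hfix]
      refine ⟨b + σ b, mem_fixed ?_, ?_⟩
      · rw [map_add, hσ, add_comm]
      · rw [hz, hw, ← hb, ← hb', ← map_add]
        rfl
    rw [hfix]
    apply le_antisymm
    · refine sup_le ?_ ?_
      · apply IntermediateField.adjoin.mono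
        rintro a (ha | ha)
        · rw [ha]; simp
        · rw [Set.mem_singleton_iff.1 ha]; simp
      · apply IntermediateField.adjoin.mono
        rintro a ha
        rw [Set.mem_singleton_iff.1 ha]
        simp
    · rw [IntermediateField.adjoin_le_iff]
      set G := IntermediateField.adjoin ℂ {s + t, s * t} ⊔ IntermediateField.adjoin ℂ {z + w}
      have hle : IntermediateField.adjoin ℂ {s + t, s * t} ≤ G := le_sup_left
      have hq : s + t ∈ G := hle (IntermediateField.subset_adjoin _ _ (by simp))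
      have hp : s * t ∈ G := hle (IntermediateField.subset_adjoin _ _ (by simp))
      have hθ : z + w ∈ G :=
        (le_sup_right : IntermediateField.adjoin ℂ {z + w} ≤ _)
          (IntermediateField.mem_adjoin_simple_self ℂ _)
      have hζ : z * w ∈ G := by
        haveI : CharZero N := charZero_of_injective_algebraMap (algebraMap ℂ N).injective
        have h3 : z * w = ((z + w) ^ 2 - (z ^ 2 + w ^ 2)) / 2 := by
          rw [eq_div_iff two_ne_zero]
          ring
        rw [h3]
        exact div_mem (sub_mem (pow_mem hθ 2) (hle hmem)) (ofNat_mem _ 2)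
      rintro a (ha | ha | ha | ha)
      · rw [ha]; exact hq
      · rw [ha]; exact hp
      · rw [ha]; exact hθ
      · rw [Set.mem_singleton_iff.1 ha]; exact hζ
  have h3 := conic_twins B.val σ hσ b z w (hz.trans hb.symm) (hw.trans hb'.symm)
    (by rw [IntermediateField.fieldRange_val, hB]; exact h1) (by rw [hfix]; exact h2)
  rw [hK] at h3
  exact h3

/-- two elements that generate a field containing the elementary symmetric functions are
algebraically independent -/
theorem indep_sym {s t l P : N} (hst : AlgebraicIndependent ℂ ![s, t])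
    (hq : s + t ∈ IntermediateField.adjoin ℂ {l, P})
    (hp : s * t ∈ IntermediateField.adjoin ℂ {l, P}) : AlgebraicIndependent ℂ ![l, P] := by
  have hr : IntermediateField.adjoin ℂ (Set.range ![l, P]) = IntermediateField.adjoin ℂ {l, P} := by
    rw [range_pair]
  rw [← hr] at hq hp
  set F := IntermediateField.adjoin ℂ (Set.range ![l, P]) with hF
  have hs : IsAlgebraic F s := by
    refine ⟨X ^ 2 - Polynomial.C ⟨s + t, hq⟩ * X + Polynomial.C ⟨s * t, hp⟩, ?_, ?_⟩
    · apply Monic.ne_zero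
      monicity!
    · simp only [map_add, map_sub, map_pow, aeval_X, map_mul, aeval_C]
      change s ^ 2 - (s + t) * s + s * t = 0
      ring
  apply indep_of_algebraic hst
  intro i
  fin_cases i
  · exact hs
  · have h1 : t = (s + t) - s := by ring
    have h2 : IsAlgebraic F ((s + t) - s) := (isAlgebraic_mem F _ hq).sub hs
    rw [← h1] at h2
    exact h2

/-- a nonzero polynomial does not vanish at a transcendental element -/
theorem poly_ne_zero {l P : N} (h : AlgebraicIndependent ℂ ![l, P]) (p : ℂ[X]) (hp : p ≠ 0) :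
    aeval l p ≠ 0 := by
  have h1 : Transcendental ℂ l := h.transcendental 0
  intro h2
  exact h1 ⟨p, hp, h2⟩

/-- a nonzero polynomial of degree at most one -/
theorem linear_ne_zero {l P : N} (h : AlgebraicIndependent ℂ ![l, P]) {e₀ e₁ : ℂ}
    (he : e₀ ≠ 0 ∨ e₁ ≠ 0) : algebraMap ℂ N e₁ * l + algebraMap ℂ N e₀ ≠ 0 := by
  have h1 := poly_ne_zero h (Polynomial.C e₁ * X + Polynomial.C e₀) (by
    intro h0
    rcases he with h2 | h2
    · apply h2
      have h3 := congrArg (fun p => Polynomial.coeff p 0) h0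
      simpa using h3
    · apply h2
      have h3 := congrArg (fun p => Polynomial.coeff p 1) h0
      simpa using h3)
  simpa using h1

/-- the double cover of the square of the line -/
theorem conic_z {s t z g γ k c : N} (hst : AlgebraicIndependent ℂ ![s, t]) (hg : g ∈ ℂ⟮s⟯)
    (hγ : γ ∈ ℂ⟮s⟯) (hk : k ∈ ℂ⟮s⟯) (hc : c ∈ ℂ⟮s⟯) (hg0 : g ≠ 0) (hc0 : c ≠ 0)
    (hz : z ^ 2 = g * (t - k * s) * ((t - k * s) * γ + c * g)) :
    IsConicType (IntermediateField.adjoin ℂ {s, t}) z := by
  have hsm : s ∈ ℂ⟮s⟯ := IntermediateField.mem_adjoin_simple_self ℂ s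
  have h2 : (2 : N) ∈ ℂ⟮s⟯ := ofNat_mem _ 2
  refine ⟨s, t, g * γ, c * g ^ 2 - 2 * g * γ * k * s, g * γ * k ^ 2 * s ^ 2 - c * g ^ 2 * k * s, 1,
    hst, rfl, mul_mem hg hγ, ?_, ?_, ?_, one_mem _, one_ne_zero, ?_⟩
  · exact sub_mem (mul_mem hc (pow_mem hg 2)) (mul_mem (mul_mem (mul_mem (mul_mem h2 hg) hγ) hk) hsm)
  · exact sub_mem (mul_mem (mul_mem (mul_mem hg hγ) (pow_mem hk 2)) (pow_mem hsm 2))
      (mul_mem (mul_mem (mul_mem hc (pow_mem hg 2)) hk) hsm)
  · have h3 : (c * g ^ 2 - 2 * g * γ * k * s) ^ 2 -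
        4 * (g * γ) * (g * γ * k ^ 2 * s ^ 2 - c * g ^ 2 * k * s) = (c * g ^ 2) ^ 2 := by ring
    rw [h3]
    exact pow_ne_zero 2 (mul_ne_zero hc0 (pow_ne_zero 2 hg0))
  · rw [one_mul, hz]
    ring

end

end Vale.Agent.P297.R2.H834
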