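import Vale.Agent.P297.R2.H834.Tools
import Vale.Agent.P297.R2.H834.TriDefs

/-!
The second type of triangle twins.
-/

set_option linter.unusedSectionVars false
set_option linter.style.haveILetI false

open CategoryTheory AlgebraicGeometry IntermediateField Polynomial

namespace Vale.Agent.P297.R2.H834

open Vale.Agent.P297 Vale.Agent.P297.H839 Vale.Agent.P297.H109

section

variable {N : Type} [Field N] [Algebra ℂ N]

theorem two_z {κ n : ℂ} (hκ : κ ≠ 0) {s t z : N}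
    (hst : AlgebraicIndependent ℂ ![s, t]) (hz : z ^ 2 = TriTwo κ n s t) :
    IsConicType (IntermediateField.adjoin ℂ {s, t}) z := by
  have hs1 : s - 1 ≠ 0 := sub_ne_zero.2 (by simpa using ne_const hst 1)
  have hsk : s - algebraMap ℂ N κ ≠ 0 := sub_ne_zero.2 (ne_const hst κ)
  have hskk : s - algebraMap ℂ N κ ^ 2 ≠ 0 := sub_ne_zero.2 (by rw [← map_pow]; exact ne_const hst (κ ^ 2))
  have hK0 : algebraMap ℂ N κ ≠ 0 := (_root_.map_ne_zero _).2 hκ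
  have hKm : algebraMap ℂ N κ ∈ ℂ⟮s⟯ := IntermediateField.algebraMap_mem _ _
  have hnm : algebraMap ℂ N n ∈ ℂ⟮s⟯ := IntermediateField.algebraMap_mem _ _
  have hsm : s ∈ ℂ⟮s⟯ := IntermediateField.mem_adjoin_simple_self ℂ s
  have h1 : (1 : N) ∈ ℂ⟮s⟯ := one_mem _
  refine conic_z (g := (s - 1) * (s - algebraMap ℂ N κ) * (s - algebraMap ℂ N κ ^ 2))
    (γ := (s - 1) * (s - algebraMap ℂ N κ ^ 2) + algebraMap ℂ N n * (s - algebraMap ℂ N κ ^ 3))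
    (k := algebraMap ℂ N κ) (c := algebraMap ℂ N κ) hst
    (mul_mem (mul_mem (sub_mem hsm h1) (sub_mem hsm hKm)) (sub_mem hsm (pow_mem hKm 2)))
    (add_mem (mul_mem (sub_mem hsm h1) (sub_mem hsm (pow_mem hKm 2)))
      (mul_mem hnm (sub_mem hsm (pow_mem hKm 3)))) hKm hKm
    (mul_ne_zero (mul_ne_zero hs1 hsk) hskk) hK0 ?_
  rw [hz]
  unfold TriTwo
  ring

theorem disc_aux {κ n : ℂ} (h0 : κ ≠ 0) (h1 : κ - 1 ≠ 0) (h2 : κ + 1 ≠ 0)
    (h3 : n * (κ + 1) + κ - 1 ≠ 0) :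
    ((κ ^ 2 - 1 + n * (κ ^ 2 + 1)) ^ 2 - 4 * n ^ 2 * κ ^ 2 ≠ 0) ∨
    ((κ ^ 2 - 1 + n * (κ ^ 2 + 1)) ^ 2 * (n * (κ ^ 2 - 1)) +
      4 * n ^ 2 * κ ^ 2 * (κ - 1) ^ 2 ≠ 0) := by
  by_contra h
  rw [not_or, not_not, not_not] at h
  obtain ⟨ha, hb⟩ := h
  have e1 : (κ - 1) * (κ + 1) * (n * (κ + 1) + κ - 1) * (κ + 1 + n * (κ - 1)) = 0 := by
    linear_combination ha
  have e2 : κ + 1 + n * (κ - 1) = 0 :=
    (mul_eq_zero.1 e1).resolve_left (mul_ne_zero (mul_ne_zero h1 h2) h3)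
  have e3 : n ^ 2 * κ ^ 2 * (κ - 1) * (n * (κ + 1) + κ - 1) = 0 := by
    linear_combination (1 / 4) * hb - (1 / 4) * (n * (κ ^ 2 - 1)) * ha
  have e4 : n ^ 2 * (κ ^ 2 * (κ - 1) * (n * (κ + 1) + κ - 1)) = 0 := by
    linear_combination e3
  have e5 : n ^ 2 = 0 := (mul_eq_zero.1 e4).resolve_right
    (mul_ne_zero (mul_ne_zero (pow_ne_zero 2 h0) h1) h3)
  have e6 : n = 0 := by simpa using e5
  rw [e6] at e2
  apply h2
  linear_combination e2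

theorem two_zw {κ n : ℂ} (h0 : κ ≠ 0) (h1 : κ - 1 ≠ 0) (h2 : κ + 1 ≠ 0)
    (h3 : n * (κ + 1) + κ - 1 ≠ 0) {s t z w : N}
    (hst : AlgebraicIndependent ℂ ![s, t]) (hz : z ^ 2 = TriTwo κ n s t)
    (hw : w ^ 2 = TriTwo κ n t s) :
    IsConicType (IntermediateField.adjoin ℂ {s + t, s * t}) (z * w) := by
  obtain ⟨-, -, hT1, hT2⟩ := factors_ne_zero κ hst
  have hts := indep_swap hst
  have hs1 : s - 1 ≠ 0 := sub_ne_zero.2 (by simpa using ne_const hst 1)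
  have ht1 : t - 1 ≠ 0 := sub_ne_zero.2 (by simpa using ne_const hts 1)
  have hskk : s - algebraMap ℂ N κ ^ 2 ≠ 0 := sub_ne_zero.2 (by rw [← map_pow]; exact ne_const hst (κ ^ 2))
  have htkk : t - algebraMap ℂ N κ ^ 2 ≠ 0 := sub_ne_zero.2 (by rw [← map_pow]; exact ne_const hts (κ ^ 2))
  have hR := aeval_ne_zero hst
    (((1 + MvPolynomial.C κ) ^ 2 * (MvPolynomial.X 0 * MvPolynomial.X 1) -
      MvPolynomial.C κ * (MvPolynomial.X 0 + MvPolynomial.X 1) ^ 2) *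
      ((MvPolynomial.X 0 * MvPolynomial.X 1 - (MvPolynomial.X 0 + MvPolynomial.X 1) + 1) +
        (1 - MvPolynomial.C κ ^ 2) * (MvPolynomial.X 0 + MvPolynomial.X 1 - 1 -
        MvPolynomial.C κ)) +
      MvPolynomial.C κ * (MvPolynomial.X 0 + MvPolynomial.X 1 - 1 - MvPolynomial.C κ) ^ 2 *
        (MvPolynomial.X 0 * MvPolynomial.X 1 - MvPolynomial.C κ ^ 2 *
          (MvPolynomial.X 0 + MvPolynomial.X 1) + MvPolynomial.C κ ^ 4))
      ![0, 1 + κ] (by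
        simp only [map_sub, map_mul, map_add, map_pow, map_one, MvPolynomial.eval_C,
          MvPolynomial.eval_X, Matrix.cons_val_zero, Matrix.cons_val_one]
        have h : ((1 + κ) ^ 2 * (0 * (1 + κ)) - κ * (0 + (1 + κ)) ^ 2) *
            (0 * (1 + κ) - (0 + (1 + κ)) + 1 + (1 - κ ^ 2) * (0 + (1 + κ) - 1 - κ)) +
            κ * (0 + (1 + κ) - 1 - κ) ^ 2 * (0 * (1 + κ) - κ ^ 2 * (0 + (1 + κ)) + κ ^ 4) =
            (κ * (κ + 1)) ^ 2 := by ring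
        rw [h]
        exact pow_ne_zero 2 (mul_ne_zero h0 h2))
  simp only [map_sub, map_mul, map_add, map_pow, map_one, MvPolynomial.aeval_C,
      MvPolynomial.aeval_X, Matrix.cons_val_zero, Matrix.cons_val_one] at hR
  have hk1 : algebraMap ℂ N κ ^ 2 - 1 ≠ 0 := by
    have h : algebraMap ℂ N ((κ - 1) * (κ + 1)) ≠ 0 :=
      (_root_.map_ne_zero _).2 (mul_ne_zero h1 h2)
    rw [map_mul, map_sub, map_add, map_one] at h
    intro h4
    apply h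
    linear_combination h4
  have hk2 : algebraMap ℂ N κ - 1 ≠ 0 := by
    have h : algebraMap ℂ N (κ - 1) ≠ 0 := (_root_.map_ne_zero _).2 h1
    rwa [map_sub, map_one] at h
  obtain ⟨K, hK⟩ : ∃ K, K = algebraMap ℂ N κ := ⟨_, rfl⟩
  obtain ⟨m, hm⟩ : ∃ m, m = algebraMap ℂ N n := ⟨_, rfl⟩
  unfold TriTwo at hz hw
  rw [← hK, ← hm] at hz hw
  rw [← hK] at hT1 hT2 hskk htkk hR hk1 hk2
  obtain ⟨v, hv⟩ : ∃ v : N, v = s * t := ⟨_, rfl⟩
  obtain ⟨u, hu⟩ : ∃ u : N, u = s + t := ⟨_, rfl⟩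
  rw [← hv, ← hu] at hR
  obtain ⟨L₁, hL₁⟩ : ∃ L : N, L = v - u + 1 := ⟨_, rfl⟩
  obtain ⟨L₂, hL₂⟩ : ∃ L : N, L = v - K * u + K ^ 2 := ⟨_, rfl⟩
  obtain ⟨L₃, hL₃⟩ : ∃ L : N, L = v - K ^ 2 * u + K ^ 4 := ⟨_, rfl⟩
  obtain ⟨A, hA⟩ : ∃ A : N, A = u - 1 - K := ⟨_, rfl⟩
  obtain ⟨C, hC⟩ : ∃ C : N, C = (1 + K) ^ 2 * v - K * u ^ 2 := ⟨_, rfl⟩
  rw [← hC, ← hL₁, ← hL₃, ← hA] at hR
  have hf1 : L₁ = (s - 1) * (t - 1) := by rw [hL₁, hv, hu]; ring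
  have hf2 : L₂ = (s - K) * (t - K) := by rw [hL₂, hv, hu]; ring
  have hf3 : L₃ = (s - K ^ 2) * (t - K ^ 2) := by rw [hL₃, hv, hu]; ring
  have hf4 : C = (t - K * s) * (s - K * t) := by rw [hC, hv, hu]; ring
  have hL1 : L₁ ≠ 0 := by rw [hf1]; exact mul_ne_zero hs1 ht1
  have hL3 : L₃ ≠ 0 := by rw [hf3]; exact mul_ne_zero hskk htkk
  have hC0 : C ≠ 0 := by rw [hf4]; exact mul_ne_zero hT1 hT2
  obtain ⟨l, hl⟩ : ∃ l : N, l = C / (L₁ * L₃) := ⟨_, rfl⟩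
  obtain ⟨y, hy⟩ : ∃ y : N, y = L₂ / L₁ := ⟨_, rfl⟩
  obtain ⟨a, ha⟩ : ∃ a : N, a = A / L₁ := ⟨_, rfl⟩
  have hX0 : L₁ * L₃ ≠ 0 := mul_ne_zero hL1 hL3
  have hl0 : l ≠ 0 := by
    rw [hl]
    exact div_ne_zero hC0 hX0
  have hlX : l * (L₁ * L₃) = C := by rw [hl, div_mul_cancel₀ _ hX0]
  have hyL : y * L₁ = L₂ := by rw [hy, div_mul_cancel₀ _ hL1]
  have haL : a * L₁ = A := by rw [ha, div_mul_cancel₀ _ hL1]
  have haeq : a = (1 - y) / (K - 1) := by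
    rw [eq_div_iff hk2]
    apply mul_right_cancel₀ hL1
    have h : a * (K - 1) * L₁ = (K - 1) * (a * L₁) := by ring
    have h' : (1 - y) * L₁ = L₁ - y * L₁ := by ring
    rw [h, haL, h', hyL, hA, hL₁, hL₂]
    ring
  have hden : l * (1 + a - K ^ 2 * a) + K * a ^ 2 ≠ 0 := by
    intro h
    apply hR
    rw [← hlX, ← haL]
    linear_combination (L₁ ^ 2 * L₃) * h
  have huA : u = 1 + K + a * L₁ := by rw [haL, hA]; ring
  have hvA : v = K + L₁ + a * L₁ := by rw [haL, hA, hL₁]; ring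
  have hLeq : L₁ = ((1 + K) ^ 2 + (1 - K ^ 2) * a - l * (K * (K - 1) ^ 2 * (K + 1))) /
      (l * (1 + a - K ^ 2 * a) + K * a ^ 2) := by
    rw [eq_div_iff hden]
    apply mul_right_cancel₀ hL1
    have e1 : C = L₁ * ((1 + K) ^ 2 + (1 - K ^ 2) * a - K * a ^ 2 * L₁) := by
      rw [hC, huA, hvA]
      ring
    have e2 : L₃ = K * (K - 1) ^ 2 * (K + 1) + L₁ * (1 + a - K ^ 2 * a) := by
      rw [hL₃, huA, hvA]
      ring
    rw [e1, e2] at hlX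
    linear_combination hlX
  -- membership
  have hKm : ∀ F : IntermediateField ℂ N, K ∈ F ∧ m ∈ F := fun F =>
    ⟨by rw [hK]; exact F.algebraMap_mem _, by rw [hm]; exact F.algebraMap_mem _⟩
  have hgen : ∀ F : IntermediateField ℂ N, l ∈ F → y ∈ F → u ∈ F ∧ v ∈ F := by
    intro F hlF hyF
    obtain ⟨hKF, -⟩ := hKm F
    have h1F : (1 : N) ∈ F := one_mem _
    have haF : a ∈ F := by
      rw [haeq]
      exact div_mem (sub_mem h1F hyF) (sub_mem hKF h1F)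
    have hLF : L₁ ∈ F := by
      rw [hLeq]
      exact div_mem (sub_mem (add_mem (pow_mem (add_mem h1F hKF) 2) (mul_mem (sub_mem h1F
        (pow_mem hKF 2)) haF)) (mul_mem hlF (mul_mem (mul_mem hKF (pow_mem (sub_mem hKF h1F) 2))
        (add_mem hKF h1F)))) (add_mem (mul_mem hlF (sub_mem (add_mem h1F haF)
        (mul_mem (pow_mem hKF 2) haF))) (mul_mem hKF (pow_mem haF 2)))
    constructor
    · rw [huA]; exact add_mem (add_mem h1F hKF) (mul_mem haF hLF)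
    · rw [hvA]; exact add_mem (add_mem hKF hLF) (mul_mem haF hLF)
  have hgen' : ∀ F : IntermediateField ℂ N, u ∈ F → v ∈ F → l ∈ F ∧ y ∈ F ∧ L₁ ∈ F ∧ L₃ ∈ F := by
    intro F huF hvF
    obtain ⟨hKF, -⟩ := hKm F
    have h1F : (1 : N) ∈ F := one_mem _
    have hL1F : L₁ ∈ F := by rw [hL₁]; exact add_mem (sub_mem hvF huF) h1F
    have hL2F : L₂ ∈ F := by
      rw [hL₂]; exact add_mem (sub_mem hvF (mul_mem hKF huF)) (pow_mem hKF 2)
    have hL3F : L₃ ∈ F := by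
      rw [hL₃]; exact add_mem (sub_mem hvF (mul_mem (pow_mem hKF 2) huF)) (pow_mem hKF 4)
    have hCF : C ∈ F := by
      rw [hC]
      exact sub_mem (mul_mem (pow_mem (add_mem h1F hKF) 2) hvF) (mul_mem hKF (pow_mem huF 2))
    refine ⟨?_, ?_, hL1F, hL3F⟩
    · rw [hl]; exact div_mem hCF (mul_mem hL1F hL3F)
    · rw [hy]; exact div_mem hL2F hL1F
  have hlF : l ∈ IntermediateField.adjoin ℂ {l, y} := IntermediateField.subset_adjoin _ _ (by simp)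
  have hyF : y ∈ IntermediateField.adjoin ℂ {l, y} := IntermediateField.subset_adjoin _ _ (by simp)
  have huL : u ∈ IntermediateField.adjoin ℂ {s + t, s * t} := by
    rw [hu]; exact IntermediateField.subset_adjoin _ _ (by simp)
  have hvL : v ∈ IntermediateField.adjoin ℂ {s + t, s * t} := by
    rw [hv]; exact IntermediateField.subset_adjoin _ _ (by simp)
  obtain ⟨huF, hvF⟩ := hgen _ hlF hyF
  obtain ⟨hlL, hyL', hL1L, hL3L⟩ := hgen' _ huL hvL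
  have hind : AlgebraicIndependent ℂ ![l, y] :=
    indep_sym hst (by rw [← hu]; exact huF) (by rw [← hv]; exact hvF)
  have hEq : IntermediateField.adjoin ℂ {s + t, s * t} = IntermediateField.adjoin ℂ {l, y} := by
    apply le_antisymm
    · rw [IntermediateField.adjoin_le_iff]
      rintro b (hb | hb)
      · rw [hb, ← hu]; exact huF
      · rw [Set.mem_singleton_iff.1 hb, ← hv]; exact hvF
    · rw [IntermediateField.adjoin_le_iff]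
      rintro b (hb | hb)
      · rw [hb]; exact hlL
      · rw [Set.mem_singleton_iff.1 hb]; exact hyL'
  -- the equation
  obtain ⟨L₄, hL₄⟩ : ∃ L : N, L = v - K ^ 3 * u + K ^ 6 := ⟨_, rfl⟩
  obtain ⟨J, hJ⟩ : ∃ J : N, J = (s - 1) * (t - K ^ 3) * (s - K * t) +
    (t - 1) * (s - K ^ 3) * (t - K * s) := ⟨_, rfl⟩
  obtain ⟨Q, hQ⟩ : ∃ Q : N, Q =
      ((s - 1) * (s - K ^ 2) * (t - K ^ 2) + m * (s - K ^ 3) * (t - K * s)) *
        ((t - 1) * (t - K ^ 2) * (s - K ^ 2) + m * (t - K ^ 3) * (s - K * t)) := ⟨_, rfl⟩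
  have hf5 : L₄ = (s - K ^ 3) * (t - K ^ 3) := by rw [hL₄, hv, hu]; ring
  have aux : ∀ a b c d e a' b' c' d' e' : N,
      (a * b * b' + m * c * d) * (a' * b' * b + m * c' * d') =
      (a * a') * (b * b') ^ 2 + m ^ 2 * ((c * c') * (d * d')) +
        m * ((b * b') * (a * c' * d' + a' * c * d)) := by
    intros
    ring
  have hM : Q = L₁ * L₃ ^ 2 + m ^ 2 * (L₄ * C) + m * (L₃ * J) := by
    rw [hQ, aux _ _ _ _ 0 _ _ _ _ 0, ← hf1, ← hf3, ← hf4, ← hf5, ← hJ]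
  have hA4 : L₂ * L₄ = -K ^ 2 * (L₁ * L₃) + (K ^ 2 + 1) * (L₂ * L₃) +
      K ^ 2 * (K - 1) ^ 2 * C := by
    rw [hC, hL₁, hL₂, hL₃, hL₄]
    ring
  have hJ4 : (K ^ 2 - 1) * J = L₁ * L₄ - L₂ * L₃ + (K ^ 2 - 1) ^ 2 * C := by
    rw [hJ, hC, hL₁, hL₂, hL₃, hL₄, hu, hv]
    ring
  have key : (K ^ 2 - 1) * (L₂ * Q) =
      (K ^ 2 - 1) * (L₁ * L₃) * (L₂ * L₃) +
        m ^ 2 * (K ^ 2 - 1) * (-K ^ 2 * (L₁ * L₃) + (K ^ 2 + 1) * (L₂ * L₃) +
          K ^ 2 * (K - 1) ^ 2 * C) * C +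
        m * ((L₁ * L₃) * (-K ^ 2 * (L₁ * L₃) + (K ^ 2 + 1) * (L₂ * L₃) +
          K ^ 2 * (K - 1) ^ 2 * C) - (L₂ * L₃) ^ 2 + (K ^ 2 - 1) ^ 2 * (L₂ * L₃) * C) := by
    rw [hM]
    linear_combination (m ^ 2 * (K ^ 2 - 1) * C + m * (L₁ * L₃)) * hA4 + m * (L₂ * L₃) * hJ4
  obtain ⟨i, hi⟩ : ∃ i : N, i = (K ^ 2 - 1)⁻¹ := ⟨_, rfl⟩
  have hik : i * (K ^ 2 - 1) = 1 := by rw [hi, inv_mul_cancel₀ hk1]
  have hi0 : i ≠ 0 := by rw [hi]; exact inv_ne_zero hk1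
  obtain ⟨β, hβ⟩ : ∃ β : N, β = K ^ 2 - 1 + m * (K ^ 2 + 1) := ⟨_, rfl⟩
  have hzw : (z * w) ^ 2 = ((L₁ * L₃) ^ 2) ^ 2 *
      ((l * i * (-m)) * y ^ 2 + (l * i * (β * (1 + m * (K ^ 2 - 1) * l))) * y +
        l * i * (m * (1 + m * (K ^ 2 - 1) * l) * (K ^ 2 * ((K - 1) ^ 2 * l - 1)))) := by
    have aux' : ∀ a b c d e a' b' c' d' e' : N, (a * b * c * d * e) * (a' * b' * c' * d' * e') =
        ((a * a') * (c * c')) * (d * d') * ((b * b') * (e * e')) := by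
      intros
      ring
    have h5 : (z * w) ^ 2 = (L₁ * L₃) * C * (L₂ * Q) := by
      rw [mul_pow, hz, hw, aux', ← hf1, ← hf2, ← hf3, ← hf4, ← hQ]
    have h4 : (z * w) ^ 2 = i * ((L₁ * L₃) * C * ((K ^ 2 - 1) * (L₂ * Q))) := by
      rw [h5]
      linear_combination (-((L₁ * L₃) * C * (L₂ * Q))) * hik
    rw [h4, key, ← hlX, ← hyL, hβ]
    ring
  have hdisc : (l * i * (β * (1 + m * (K ^ 2 - 1) * l))) ^ 2 - 4 * (l * i * (-m)) *
      (l * i * (m * (1 + m * (K ^ 2 - 1) * l) * (K ^ 2 * ((K - 1) ^ 2 * l - 1)))) ≠ 0 := by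
    have e1 : (l * i * (β * (1 + m * (K ^ 2 - 1) * l))) ^ 2 - 4 * (l * i * (-m)) *
      (l * i * (m * (1 + m * (K ^ 2 - 1) * l) * (K ^ 2 * ((K - 1) ^ 2 * l - 1)))) =
      (l * i) ^ 2 * ((m * (K ^ 2 - 1) * l + 1) *
        ((β ^ 2 * (m * (K ^ 2 - 1)) + 4 * m ^ 2 * K ^ 2 * (K - 1) ^ 2) * l +
          (β ^ 2 - 4 * m ^ 2 * K ^ 2))) := by
      ring
    rw [e1]
    refine mul_ne_zero (pow_ne_zero 2 (mul_ne_zero hl0 hi0)) (mul_ne_zero ?_ ?_)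
    · have h := linear_ne_zero hind (e₀ := 1) (e₁ := n * (κ ^ 2 - 1)) (Or.inl one_ne_zero)
      rw [map_one, map_mul, map_sub, map_pow, map_one, ← hK, ← hm] at h
      exact h
    · have h := linear_ne_zero hind (disc_aux h0 h1 h2 h3)
      simp only [map_sub, map_mul, map_add, map_pow, map_one, map_ofNat] at h
      rw [← hK, ← hm, ← hβ] at h
      exact h
  obtain ⟨hKl, hml⟩ := hKm ℂ⟮l⟯
  have hll : l ∈ ℂ⟮l⟯ := IntermediateField.mem_adjoin_simple_self ℂ l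
  have h1l : (1 : N) ∈ ℂ⟮l⟯ := one_mem _
  have hil : i ∈ ℂ⟮l⟯ := by rw [hi]; exact inv_mem (sub_mem (pow_mem hKl 2) h1l)
  have hβl : β ∈ ℂ⟮l⟯ := by
    rw [hβ]
    exact add_mem (sub_mem (pow_mem hKl 2) h1l) (mul_mem hml (add_mem (pow_mem hKl 2) h1l))
  have hρl : 1 + m * (K ^ 2 - 1) * l ∈ ℂ⟮l⟯ :=
    add_mem h1l (mul_mem (mul_mem hml (sub_mem (pow_mem hKl 2) h1l)) hll)
  have hq0 : (L₁ * L₃) ^ 2 ≠ 0 := pow_ne_zero 2 hX0
  refine ⟨l, y, l * i * (-m), l * i * (β * (1 + m * (K ^ 2 - 1) * l)),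
    l * i * (m * (1 + m * (K ^ 2 - 1) * l) * (K ^ 2 * ((K - 1) ^ 2 * l - 1))),
    ((L₁ * L₃) ^ 2)⁻¹, hind, hEq, mul_mem (mul_mem hll hil) (neg_mem hml),
    mul_mem (mul_mem hll hil) (mul_mem hβl hρl), mul_mem (mul_mem hll hil)
      (mul_mem (mul_mem hml hρl) (mul_mem (pow_mem hKl 2) (sub_mem (mul_mem (pow_mem
        (sub_mem hKl h1l) 2) hll) h1l))), hdisc, inv_mem (pow_mem (mul_mem hL1L hL3L) 2),
    inv_ne_zero hq0, ?_⟩
  rw [mul_pow, hzw, ← mul_assoc, inv_pow, inv_mul_cancel₀ (pow_ne_zero 2 hq0), one_mul]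

end

/-- **The second type of triangle twins.** -/
theorem tri_two {κ n : ℂ} (h0 : κ ≠ 0) (h1 : κ - 1 ≠ 0) (h2 : κ + 1 ≠ 0)
    (h3 : n * (κ + 1) + κ - 1 ≠ 0) :
    TwinFamily (fun _ _ _ s t => TriTwo κ n s t) := by
  intro N _ _ s t z w hst hz hw
  have hp : ∀ a b : N, MvPolynomial.aeval ![a, b] ((MvPolynomial.X 0 - 1) *
      (MvPolynomial.X 0 - MvPolynomial.C κ) * (MvPolynomial.X 0 - MvPolynomial.C κ ^ 2) *
      (MvPolynomial.X 1 - MvPolynomial.C κ * MvPolynomial.X 0) *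
      ((MvPolynomial.X 0 - 1) * (MvPolynomial.X 0 - MvPolynomial.C κ ^ 2) *
        (MvPolynomial.X 1 - MvPolynomial.C κ ^ 2) + MvPolynomial.C n *
        (MvPolynomial.X 0 - MvPolynomial.C κ ^ 3) *
        (MvPolynomial.X 1 - MvPolynomial.C κ * MvPolynomial.X 0)) : MvPolynomial (Fin 2) ℂ) =
      TriTwo κ n a b := by
    intro a b
    unfold TriTwo
    simp only [map_sub, map_mul, map_add, map_pow, map_one, MvPolynomial.aeval_C,
      MvPolynomial.aeval_X, Matrix.cons_val_zero, Matrix.cons_val_one]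
  exact twin_poly _ hst (hz.trans (hp s t).symm) (hw.trans (hp t s).symm) (two_z h0 hst hz)
    (two_zw h0 h1 h2 h3 hst hz hw)

end Vale.Agent.P297.R2.H834
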